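import Mathlib
import Vale.Agent.P074.Defs
import Vale.Agent.P074.Upper
import Vale.Agent.P074.ML
import Vale.Agent.P074.TelB
import Vale.Agent.P074.Disc
import Vale.Agent.P074.Final

namespace Vale.Agent.Results.P074.SharpThird

open Vale.Agent.P074

/-- For every dimension `d ≥ 2`, the set of admissible exponents `α ∈ (0, 1]` has the greatest
element `1/3`: the optimal stability exponent is `1/3`, and it is attained. -/
theorem result (d : ℕ) (hd : 2 ≤ d) :
    IsGreatest {α : ℝ | 0 < α ∧ α ≤ 1 ∧ Admissible d α} (1 / 3) := by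
  constructor
  · refine ⟨by norm_num, by norm_num, ?_⟩
    refine admissible_third hd fun K hK hKc hKi L hL => ?_
    obtain ⟨C, hC, hML⟩ := main_lemma hK hKc hKi
    exact disc_bound_of_tel' hK hKc hKi
      (fun ι _ _ a b p pa pb g hinj hp hg hgK ha hb l hl =>
        tel_lemma' hK hKi hML hinj hp hg hgK ha hb hl) L hL
  · rintro α ⟨_, _, h⟩
    by_contra hlt
    exact not_admissible hd (not_le.1 hlt) h

end Vale.Agent.Results.P074.SharpThird
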