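import Mathlib
import Vale.Agent.P074.Defs
import Vale.Agent.P074.Upper

namespace Vale.Agent.Results.P074.UpperThird

open Vale.Agent.P074

/-- For every dimension `d ≥ 2`, every admissible exponent is at most `1/3`; in particular
`α = 1/2` is not admissible. -/
theorem result (d : ℕ) (hd : 2 ≤ d) :
    (∀ α : ℝ, 0 < α → α ≤ 1 → Admissible d α → α ≤ 1 / 3) ∧ ¬ Admissible d (1 / 2) := by
  refine ⟨fun α _ _ h => ?_, not_admissible hd (by norm_num)⟩
  by_contra hlt
  exact not_admissible hd (not_le.1 hlt) h

end Vale.Agent.Results.P074.UpperThird
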